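import Vale.Agent.P022.H390E.FinalE

/-!
P022, Q1 for the representations attached to 2-adic Hecke characters of imaginary quadratic
fields (any discriminant, `2` may ramify in the field).
-/

namespace Vale.Agent.Results.P022.CMAllDisc

open Vale.Agent.P022.H390 Vale.Agent.P022.H390E NumberField Module

/-- Let `E / ℚ₂` be finite, `K` an imaginary quadratic field, `𝔣` a nonzero ideal of `𝓞 K` prime to
`2`, `ψ` a 2-adic Hecke character of `K` of tame modulus `𝔣` with values in `𝒪_E`, and
`r : G_ℚ → GL₂(E)` a continuous representation attached to `ψ`. Then `r` occurs at some odd level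
`N` all of whose prime divisors are primes at which `r` ramifies. -/
theorem result (E : IntermediateField ℚ_[2] (PadicAlgCl 2)) [FiniteDimensional ℚ_[2] E]
    (K : Type*) [Field K] [NumberField K] (h2 : finrank ℚ K = 2) (hd : discr K < 0)
    (𝔣 : Ideal (𝓞 K)) (hf : 𝔣 ≠ ⊥) (hf2 : IsCoprime 𝔣 (Ideal.span {2}))
    (ψ : HeckeChar K 𝔣 (OE E)) (r : Rep E)
    (hr : IsAttachedTo r ψ) :
    ∃ (N : ℕ) (_ : NeZero N), Odd N ∧ (∀ q : ℕ, q.Prime → q ∣ N → ¬ UnramifiedAt r q) ∧
      OccursAt N r :=
  mainE ψ h2 hd hf hf2 r hr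

end Vale.Agent.Results.P022.CMAllDisc
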